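import Vale.Agent.P130.Main

open MeasureTheory

namespace Vale.Agent.Results.P130.SimpleLebesgue

/-- There is an invertible measure preserving transformation `T` of a standard nonatomic
probability space and a mean zero `f` in `L^2` such that the functions `f ∘ T^n`, `n ∈ ℤ`,
are orthonormal and complete in the space of mean zero square integrable functions. -/
theorem result : ∃ (X : Type) (_ : MeasurableSpace X) (_ : StandardBorelSpace X) (μ : Measure X)
    (_ : IsProbabilityMeasure μ) (T : X ≃ᵐ X), (∀ x, μ {x} = 0) ∧ MeasurePreserving T μ μ ∧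
    ∃ f : X → ℂ, MemLp f 2 μ ∧ ∫ x, f x ∂μ = 0 ∧
      (∀ m n : ℤ, ∫ x, f ((T.toEquiv ^ m) x) * (starRingEnd ℂ) (f ((T.toEquiv ^ n) x)) ∂μ =
        if m = n then 1 else 0) ∧
      ∀ g : X → ℂ, MemLp g 2 μ → ∫ x, g x ∂μ = 0 →
        (∀ n : ℤ, ∫ x, g x * (starRingEnd ℂ) (f ((T.toEquiv ^ n) x)) ∂μ = 0) → g =ᵐ[μ] 0 :=
  Vale.Agent.P130.main

end Vale.Agent.Results.P130.SimpleLebesgue
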